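import Vale.Agent.P068.Main

/-!
Under the continuum hypothesis, two matroids on a countable ground set that do not satisfy
intersection.
-/

theorem Vale.Agent.Results.P068.CounterCH.result
    (hCH : Cardinal.continuum.{0} = Cardinal.aleph 1) :
    ∃ M N : Matroid (ℤ × ℕ), M.E = Set.univ ∧ N.E = Set.univ ∧
      ¬∃ JM JN : Set (ℤ × ℕ), Disjoint JM JN ∧ M.Indep (JM ∪ JN) ∧ N.Indep (JM ∪ JN) ∧
        M.closure JM ∪ N.closure JN = Set.univ :=
  Vale.Agent.P068.main hCH
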